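import Vale.Agent.P007.Main

open MeasureTheory Filter Topology
open scoped CompactlySupported
open Vale.Agent.P007

theorem Vale.Agent.Results.P007.CompositeDegree.result :
    (∀ n : ℕ, 4 ≤ n → ¬ n.Prime →
      ∃ D : ℕ → Datum n,
        (∀ i, (D i).O = (integralClosure ℤ (D i).K).toSubring) ∧
        Tendsto (fun i => (D i).absDisc) atTop atTop ∧
        (∀ i, (⋃₀ (D i).packet).Nonempty) ∧
        ∃ f : C_c(X n, ℝ),
          ∀ m : Measure (X n), IsProbabilityMeasure m → (∀ g, MeasurePreserving (act g) m m) →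
            ∀ μ : ℕ → Measure (X n), (∀ i, μ i (⋃₀ (D i).packet)ᶜ = 0) →
              (∀ i, ∫ x, f x ∂(μ i) = 0) ∧ 0 < ∫ x, f x ∂m ∧
              ¬ Tendsto (fun i => ∫ x, f x ∂(μ i)) atTop (𝓝 (∫ x, f x ∂m))) ∧
    (∀ n : ℕ, 2 ≤ n → ∀ D : ℕ → Datum n,
      ∀ m : Measure (X n), IsProbabilityMeasure m → (∀ g, MeasurePreserving (act g) m m) →
        ∀ μ : ℕ → Measure (X n), (∀ i, μ i (⋃₀ (D i).packet)ᶜ = 0) →
          (∀ f : C_c(X n, ℝ), Tendsto (fun i => ∫ x, f x ∂(μ i)) atTop (𝓝 (∫ x, f x ∂m))) →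
          ∀ C : ℝ, ∀ᶠ i in atTop, ∀ θ ∈ (D i).O, (∀ j, |(D i).σ j θ| ≤ C) → ∃ k : ℤ, θ = k) := by
  have hzero : ∀ {n : ℕ} (f : C_c(X n, ℝ)) (S : Set (X n)) (ν : Measure (X n)), ν Sᶜ = 0 →
      (∀ x ∈ S, f x = 0) → ∫ x, f x ∂ν = 0 := by
    intro n f S ν hν hf
    refine integral_eq_zero_of_ae ?_
    have : ∀ᵐ x ∂ν, x ∈ S := hν
    exact this.mono hf
  constructor
  · intro n hn hp
    obtain ⟨D, C, hO, hdisc, hθ⟩ := exists_sequence n hn hp
    obtain ⟨f, -, hpos, hf⟩ := exists_test n (by omega) C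
    refine ⟨D, hO, hdisc, fun i => packet_nonempty _ (hO i), f, fun m hm hinv μ hμ => ?_⟩
    have h0 : ∀ i, ∫ x, f x ∂(μ i) = 0 := fun i => hzero f _ _ (hμ i) (hf _ (hθ i))
    refine ⟨h0, hpos m hm hinv, fun h => ?_⟩
    simp only [h0] at h
    exact (hpos m hm hinv).ne (tendsto_nhds_unique tendsto_const_nhds h)
  · intro n hn D m hm hinv μ hμ hconv C
    obtain ⟨f, -, hpos, hf⟩ := exists_test n (by omega) C
    have := (hconv f).eventually (lt_mem_nhds (hpos m hm hinv))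
    refine this.mono fun i hi θ hθ hθC => ?_
    by_contra hk
    push Not at hk
    exact hi.ne' (hzero f _ _ (hμ i) (hf _ ⟨θ, hθ, hk, hθC⟩))
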